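import Vale.Agent.Helper14.PrimeTile
import Vale.Agent.Helper27.ProductTile

/-!
Periodic tiling conjecture in `ℤ^d`, every `d`, for tiles of prime cardinality and for bricks
(Cartesian products of finite subsets of `ℤ`): plain statement, written with Mathlib notions only.
-/

namespace Vale.Agent.Results.P043.PrimeOrBrickPlain

open Vale.Agent.Helper14.PrimeTile Vale.Agent.Helper27.ProductTile

/-- For every dimension `d` and every finite `F ⊆ ℤ^d` that has prime cardinality or is a brick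
`E 0 × ... × E (d-1)` with finite `E i ⊆ ℤ`: if `F` tiles `ℤ^d` by translations (some `A` has
every `g` uniquely expressible as `g = a + f`, `a ∈ A`, `f ∈ F`), then there are such an `A` and
a subgroup `H` of finite index with `A + h = A` for all `h ∈ H`. -/
theorem result (d : ℕ) (F : Finset (Fin d → ℤ))
    (hF : F.card.Prime ∨ ∃ E : Fin d → Finset ℤ, F = Fintype.piFinset E)
    (htile : ∃ A : Set (Fin d → ℤ), ∀ g : Fin d → ℤ,
      ∃! af : (Fin d → ℤ) × (Fin d → ℤ), af.1 ∈ A ∧ af.2 ∈ F ∧ af.1 + af.2 = g) :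
    ∃ (A : Set (Fin d → ℤ)) (H : AddSubgroup (Fin d → ℤ)),
      (∀ g : Fin d → ℤ,
        ∃! af : (Fin d → ℤ) × (Fin d → ℤ), af.1 ∈ A ∧ af.2 ∈ F ∧ af.1 + af.2 = g) ∧
      H.FiniteIndex ∧ ∀ h ∈ H, (fun a : Fin d → ℤ => a + h) '' A = A := by
  obtain ⟨A0, hA0⟩ := htile
  have key : ∃ A : Set (Fin d → ℤ), IsTiling A F ∧ IsPeriodic A := by
    rcases hF with hp | ⟨E, rfl⟩
    · exact exists_periodic_tiling hp rfl hA0
    · exact brick_periodic hA0
  obtain ⟨A, hA, H, hH, hinv⟩ := key
  refine ⟨A, H, hA, hH, fun h hh => ?_⟩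
  ext x
  constructor
  · rintro ⟨a, ha, rfl⟩
    exact hinv h hh a ha
  · intro hx
    exact ⟨x + -h, hinv (-h) (H.neg_mem hh) x hx, by simp⟩

end Vale.Agent.Results.P043.PrimeOrBrickPlain
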