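import Vale.Agent.Helper14.PrimeTile

/-!
Tiles of prime cardinality in arbitrary and in finitely generated abelian groups
(for example `ℤ^d × G₀` with `G₀` finite abelian).
-/

namespace Vale.Agent.Results.P043.PrimeTileFGGroup

open Vale.Agent.Helper14.PrimeTile

/-- (1) In an arbitrary abelian group `G`, every tiling `A ⊕ F = G` by a finite tile `F` of prime
cardinality is invariant under all translations `|F| • (f - f')`, `f, f' ∈ F`.
(2) In a finitely generated abelian group, every tile of prime cardinality that tiles admits a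
periodic tiling. -/
theorem result :
    (∀ (G : Type) [AddCommGroup G] (F : Finset G), F.card.Prime →
      ∀ A : Set G, IsTiling A F → ∀ f ∈ F, ∀ f' ∈ F, ∀ a ∈ A, a + F.card • (f - f') ∈ A) ∧
    (∀ (G : Type) [AddCommGroup G] [Module.Finite ℤ G] (F : Finset G), F.card.Prime →
      (∃ A : Set G, IsTiling A F) → ∃ A : Set G, IsTiling A F ∧ IsPeriodic A) := by
  refine ⟨?_, ?_⟩
  · intro G _ F hp A hA f hf f' hf' a ha
    exact add_nsmul_sub_mem hp rfl hA hf hf' ha
  · intro G _ _ F hp ⟨A, hA⟩
    exact exists_periodic_tiling hp rfl hA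

end Vale.Agent.Results.P043.PrimeTileFGGroup
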