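import Vale.Agent.Helper14.PrimeTile

/-!
Periodic tiling conjecture for tiles of prime cardinality in `ℤ^d`, every `d`.
-/

namespace Vale.Agent.Results.P043.PrimeTileZd

open Vale.Agent.Helper14.PrimeTile

/-- For every dimension `d` and every finite `F ⊆ ℤ^d` of prime cardinality:
(1) if `F` tiles `ℤ^d` by translations then it admits a periodic tiling;
(2) every tiling `A ⊕ F = ℤ^d` is invariant under the translations `|F| • (f - f')`, `f, f' ∈ F`;
(3) if the differences `f - f'` generate a subgroup of finite index, every tiling is periodic. -/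
theorem result : ∀ (d : ℕ) (F : Finset (Fin d → ℤ)), F.card.Prime →
    ((∃ A : Set (Fin d → ℤ), IsTiling A F) →
      ∃ A : Set (Fin d → ℤ), IsTiling A F ∧ IsPeriodic A) ∧
    (∀ A : Set (Fin d → ℤ), IsTiling A F →
      ∀ f ∈ F, ∀ f' ∈ F, ∀ a ∈ A, a + F.card • (f - f') ∈ A) ∧
    ((AddSubgroup.closure {x : Fin d → ℤ | ∃ f ∈ F, ∃ f' ∈ F, x = f - f'}).FiniteIndex →
      ∀ A : Set (Fin d → ℤ), IsTiling A F → IsPeriodic A) := by
  intro d F hp
  refine ⟨?_, ?_, ?_⟩
  · rintro ⟨A, hA⟩
    exact exists_periodic_tiling hp rfl hA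
  · intro A hA f hf f' hf' a ha
    exact add_nsmul_sub_mem hp rfl hA hf hf' ha
  · intro hfull A hA
    exact periodic_of_finiteIndex hp rfl hA hfull

end Vale.Agent.Results.P043.PrimeTileZd
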