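import Vale.Agent.Helper27.ProductTile

/-!
Periodic tiling conjecture for product tiles: a product tile tiles (admits a periodic tiling)
iff both factors do; bricks in the integer lattice of any dimension; a one-dimensional factor
times a factor of prime cardinality.
-/

namespace Vale.Agent.Results.P043.ProductTiles

open Vale.Agent.Helper14.PrimeTile Vale.Agent.Helper27.ProductTile

/-- (1) For abelian groups `G₁`, `G₂` and finite `F₁ ⊆ G₁`, `F₂ ⊆ G₂`: the product tile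
`F₁ × F₂` tiles `G₁ × G₂` iff `F₁` tiles `G₁` and `F₂` tiles `G₂`, and `F₁ × F₂` admits a periodic
tiling iff both `F₁` and `F₂` admit periodic tilings.
(2) For every `d` and finite `F 0, ..., F (d-1) ⊆ ℤ`: if the brick `F 0 × ... × F (d-1)` tiles
`ℤ^d` by translations then it admits a periodic tiling.
(3) For a finitely generated abelian group `G`, a finite `F₁ ⊆ ℤ` and `F₂ ⊆ G` of prime
cardinality: if `F₁ × F₂` tiles `ℤ × G` then it admits a periodic tiling. -/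
theorem result :
    (∀ (G₁ G₂ : Type) [AddCommGroup G₁] [AddCommGroup G₂] (F₁ : Finset G₁) (F₂ : Finset G₂),
      ((∃ B : Set (G₁ × G₂), IsTiling B (F₁ ×ˢ F₂)) ↔
        (∃ A₁ : Set G₁, IsTiling A₁ F₁) ∧ (∃ A₂ : Set G₂, IsTiling A₂ F₂)) ∧
      ((∃ B : Set (G₁ × G₂), IsTiling B (F₁ ×ˢ F₂) ∧ IsPeriodic B) ↔
        (∃ A₁ : Set G₁, IsTiling A₁ F₁ ∧ IsPeriodic A₁) ∧
          (∃ A₂ : Set G₂, IsTiling A₂ F₂ ∧ IsPeriodic A₂))) ∧
    (∀ (d : ℕ) (F : Fin d → Finset ℤ),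
      (∃ A : Set (Fin d → ℤ), IsTiling A (Fintype.piFinset F)) →
        ∃ A : Set (Fin d → ℤ), IsTiling A (Fintype.piFinset F) ∧ IsPeriodic A) ∧
    (∀ (G : Type) [AddCommGroup G] [Module.Finite ℤ G] (F₁ : Finset ℤ) (F₂ : Finset G),
      F₂.card.Prime → (∃ B : Set (ℤ × G), IsTiling B (F₁ ×ˢ F₂)) →
        ∃ B : Set (ℤ × G), IsTiling B (F₁ ×ˢ F₂) ∧ IsPeriodic B) := by
  refine ⟨?_, ?_, ?_⟩
  · intro G₁ G₂ _ _ F₁ F₂
    refine ⟨⟨?_, ?_⟩, ⟨?_, ?_⟩⟩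
    · rintro ⟨B, hB⟩
      exact ⟨⟨_, isTiling_fst hB⟩, ⟨_, isTiling_snd hB⟩⟩
    · rintro ⟨⟨A₁, h₁⟩, ⟨A₂, h₂⟩⟩
      exact ⟨A₁ ×ˢ A₂, isTiling_prod h₁ h₂⟩
    · rintro ⟨B, hB, hP⟩
      exact ⟨⟨_, isTiling_fst hB, isPeriodic_fst hP⟩, ⟨_, isTiling_snd hB, isPeriodic_snd hP⟩⟩
    · rintro ⟨⟨A₁, h₁, p₁⟩, ⟨A₂, h₂, p₂⟩⟩
      exact ⟨A₁ ×ˢ A₂, isTiling_prod h₁ h₂, isPeriodic_prod p₁ p₂⟩
  · rintro d F ⟨B, hB⟩
    exact brick_periodic hB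
  · rintro G _ _ F₁ F₂ hp ⟨B, hB⟩
    have h₁ := isTiling_fst hB
    obtain ⟨A₂, h₂, p₂⟩ := exists_periodic_tiling hp rfl (isTiling_snd hB)
    exact ⟨_, isTiling_prod h₁ h₂, isPeriodic_prod (int_isPeriodic h₁) p₂⟩

end Vale.Agent.Results.P043.ProductTiles
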